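import Vale.Agent.P183.R2.H668.KW.Spec

set_option autoImplicit false

/-!
Row B: the number of graphs without four-cycles, from the number of neighbourhoods.
-/

namespace Vale.Agent.P183.R2.H636

open Finset Vale.Agent.P183.R2.H668.KW

/-- The graphs without four-cycles whose edges lie inside `T`. -/
def S {V : Type} (T : Finset V) : Set (SimpleGraph V) :=
  {G | C4Free G ∧ ∀ x y, G.Adj x y → x ∈ T}

/-- `G` without the edges at `v`. -/
def del {V : Type} (G : SimpleGraph V) (v : V) : SimpleGraph V where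
  Adj x y := G.Adj x y ∧ x ≠ v ∧ y ≠ v
  symm := ⟨fun _ _ h => ⟨h.1.symm, h.2.2, h.2.1⟩⟩
  loopless := ⟨fun _ h => G.loopless.irrefl _ h.1⟩

/-- `G` with the edges from `v` to `I` added. -/
def addv {V : Type} (G : SimpleGraph V) (v : V) (I : Finset V) : SimpleGraph V :=
  SimpleGraph.fromRel (fun x y => G.Adj x y ∨ (x = v ∧ y ∈ I))

theorem finS {V : Type} [Finite V] (A : Set (SimpleGraph V)) : A.Finite := by
  haveI : Finite (SimpleGraph V) :=
    Finite.of_injective (fun G : SimpleGraph V => G.Adj) (fun G H h => SimpleGraph.ext h)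
  exact Set.toFinite _

theorem step {V : Type} [Finite V] [DecidableEq V] (T : Finset V) (hT : T.Nonempty) (M N : ℕ)
    (hM : ∀ v ∈ T, (S (T.erase v : Finset V)).ncard ≤ M)
    (hN : ∀ v ∈ T, ∀ G ∈ S (T.erase v : Finset V), (nbhds G (T.erase v)).ncard ≤ N) :
    (S T).ncard ≤ T.card * (M * N) := by
  classical
  haveI := Fintype.ofFinite V
  let SF : Finset V → Finset (SimpleGraph V) := fun T => (finS (S T)).toFinset
  have hSF : ∀ T, (S T).ncard = (SF T).card := fun T => Set.ncard_eq_toFinset_card _ (finS _)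
  let NF : SimpleGraph V → Finset V → Finset (Finset V) :=
    fun G T => (Set.toFinite (nbhds G T)).toFinset
  have hNF : ∀ G T, (nbhds G T).ncard = (NF G T).card :=
    fun G T => Set.ncard_eq_toFinset_card _ (Set.toFinite _)
  have hsub : SF T ⊆ T.biUnion (fun v => (SF (T.erase v)).biUnion
      (fun G => (NF G (T.erase v)).image (fun I => addv G v I))) := by
    intro G hG
    have hG' : G ∈ S T := by simpa [SF] using hG
    obtain ⟨hC, hE⟩ := hG'
    obtain ⟨v, hv, hmin⟩ := T.exists_min_image (fun x => {y | G.Adj x y}.ncard) hT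
    refine mem_biUnion.2 ⟨v, hv, mem_biUnion.2 ⟨del G v, ?_, mem_image.2
      ⟨univ.filter (fun y => G.Adj v y), ?_, ?_⟩⟩⟩
    · have : del G v ∈ S (T.erase v) := by
        refine ⟨fun a b x y hab h1 h2 h3 h4 => hC a b x y hab h1.1 h2.1 h3.1 h4.1, ?_⟩
        intro x y h
        exact mem_erase.2 ⟨h.2.1, hE x y h.1⟩
      simpa [SF] using this
    · have : (univ.filter (fun y => G.Adj v y)) ∈ nbhds (del G v) (T.erase v) := by
        refine ⟨?_, ?_, ?_⟩
        · intro y hy
          have hy' : G.Adj v y := by simpa using hy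
          exact mem_erase.2 ⟨hy'.ne', hE y v hy'.symm⟩
        · intro x hx
          have hx' := mem_erase.1 hx
          have h1 : (univ.filter (fun y => G.Adj v y)).card = {y | G.Adj v y}.ncard := by
            rw [Set.ncard_eq_toFinset_card' {y | G.Adj v y}]
            congr 1
            ext y
            simp
          rw [h1]
          refine (hmin x hx'.2).trans ?_
          refine (Set.ncard_le_ncard (t := insert v {y | (del G v).Adj x y}) ?_
            (Set.toFinite _)).trans (Set.ncard_insert_le _ _)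
          intro y hy
          by_cases hyv : y = v
          · exact Or.inl hyv
          · exact Or.inr ⟨hy, hx'.1, hyv⟩
        · intro x hx y hy hxy ⟨w, hwx, hwy⟩
          have hx' : G.Adj v x := by simpa using hx
          have hy' : G.Adj v y := by simpa using hy
          exact hxy (hC v w x y (fun h => hwx.2.1 h.symm) hx' hwx.1 hy' hwy.1)
      simpa [NF] using this
    · ext x y
      simp only [addv, SimpleGraph.fromRel_adj, del, mem_filter, mem_univ, true_and]
      constructor
      · rintro ⟨-, (h | ⟨rfl, h⟩) | (h | ⟨rfl, h⟩)⟩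
        · exact h.1
        · exact h
        · exact h.1.symm
        · exact h.symm
      · intro h
        refine ⟨h.ne, ?_⟩
        by_cases hx : x = v
        · subst hx
          exact Or.inl (Or.inr ⟨rfl, h⟩)
        · by_cases hy : y = v
          · subst hy
            exact Or.inr (Or.inr ⟨rfl, h.symm⟩)
          · exact Or.inl (Or.inl ⟨h, hx, hy⟩)
  rw [hSF]
  refine (card_le_card hsub).trans ?_
  refine card_biUnion_le_card_mul _ _ _ (fun v hv => ?_)
  have h1 : ((SF (T.erase v)).biUnion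
      (fun G => (NF G (T.erase v)).image (fun I => addv G v I))).card ≤
      (SF (T.erase v)).card * N := by
    refine card_biUnion_le_card_mul _ _ _ (fun G hG => ?_)
    have hG' : G ∈ S (T.erase v) := by simpa [SF] using hG
    refine card_image_le.trans ?_
    rw [← hNF]
    exact hN v hv G hG'
  refine h1.trans (Nat.mul_le_mul_right _ ?_)
  rw [← hSF]
  exact hM v hv

theorem pow32 (x : ℝ) (hx : 0 ≤ x) : x ^ (3 / 2 : ℝ) = x * x ^ (1 / 2 : ℝ) := by
  have h := Real.rpow_add' hx (y := 1) (z := (1 / 2 : ℝ)) (by norm_num)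
  rw [Real.rpow_one] at h
  rw [← h]
  norm_num

theorem le_exp_sqrt (x : ℝ) (hx : 0 ≤ x) : x ≤ Real.exp (2 * x ^ (1 / 2 : ℝ)) := by
  have hs : 0 ≤ x ^ (1 / 2 : ℝ) := Real.rpow_nonneg hx _
  have h1 : x ^ (1 / 2 : ℝ) * x ^ (1 / 2 : ℝ) = x := by
    rw [← Real.rpow_add' hx (by norm_num)]
    norm_num
  have h2 : x ^ (1 / 2 : ℝ) ≤ Real.exp (x ^ (1 / 2 : ℝ)) := by
    have := Real.add_one_le_exp (x ^ (1 / 2 : ℝ))
    linarith
  calc x = x ^ (1 / 2 : ℝ) * x ^ (1 / 2 : ℝ) := h1.symm
    _ ≤ Real.exp (x ^ (1 / 2 : ℝ)) * Real.exp (x ^ (1 / 2 : ℝ)) :=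
        mul_le_mul h2 h2 hs (Real.exp_pos _).le
    _ = Real.exp (2 * x ^ (1 / 2 : ℝ)) := by rw [← Real.exp_add]; congr 1; ring

theorem main_bound {V : Type} [Finite V] [DecidableEq V] {C : ℝ} (hC : 0 < C)
    (h : ∀ (G : SimpleGraph V), C4Free G →
      ∀ T : Finset V, (∀ x y, G.Adj x y → x ∈ T) →
        ((nbhds G T).ncard : ℝ) ≤ Real.exp (C * (T.card : ℝ) ^ (1 / 2 : ℝ))) :
    ∀ (t : ℕ) (T : Finset V), T.card = t →
      ((S T).ncard : ℝ) ≤ Real.exp ((C + 2) * (t : ℝ) ^ (3 / 2 : ℝ)) := by
  classical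
  intro t
  induction t with
  | zero =>
    intro T hT
    have hT0 : T = ∅ := card_eq_zero.1 hT
    subst hT0
    have : S (∅ : Finset V) ⊆ {⊥} := by
      intro G hG
      rw [Set.mem_singleton_iff]
      ext x y
      simp only [SimpleGraph.bot_adj, iff_false]
      intro hxy
      exact absurd (hG.2 x y hxy) (notMem_empty _)
    have h1 : (S (∅ : Finset V)).ncard ≤ 1 := by
      refine (Set.ncard_le_ncard this (Set.finite_singleton _)).trans ?_
      rw [Set.ncard_singleton]
    have h2 : ((S (∅ : Finset V)).ncard : ℝ) ≤ 1 := by exact_mod_cast h1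
    refine h2.trans (Real.one_le_exp ?_)
    positivity
  | succ t ih =>
    intro T hT
    have hne : T.Nonempty := card_pos.1 (by omega)
    have hcard : ∀ v ∈ T, (T.erase v).card = t := by
      intro v hv
      rw [card_erase_of_mem hv, hT]
      rfl
    set M : ℕ := ⌊Real.exp ((C + 2) * (t : ℝ) ^ (3 / 2 : ℝ))⌋₊ with hMdef
    set N : ℕ := ⌊Real.exp (C * (t : ℝ) ^ (1 / 2 : ℝ))⌋₊ with hNdef
    have hst := step T hne M N (fun v hv => Nat.le_floor (ih _ (hcard v hv)))
      (fun v hv G hG => Nat.le_floor (by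
        have := h G hG.1 (T.erase v) hG.2
        rwa [hcard v hv] at this))
    have hst' : ((S T).ncard : ℝ) ≤ ((t + 1 : ℕ) : ℝ) * ((M : ℝ) * (N : ℝ)) := by
      rw [hT] at hst
      exact_mod_cast hst
    have hM : (M : ℝ) ≤ Real.exp ((C + 2) * (t : ℝ) ^ (3 / 2 : ℝ)) :=
      Nat.floor_le (Real.exp_pos _).le
    have hN : (N : ℝ) ≤ Real.exp (C * (t : ℝ) ^ (1 / 2 : ℝ)) :=
      Nat.floor_le (Real.exp_pos _).le
    have ht0 : (0 : ℝ) ≤ ((t + 1 : ℕ) : ℝ) := by positivity
    have h1 := le_exp_sqrt ((t + 1 : ℕ) : ℝ) ht0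
    refine hst'.trans ?_
    refine (mul_le_mul h1 (mul_le_mul hM hN (by positivity) (Real.exp_pos _).le)
      (by positivity) (Real.exp_pos _).le).trans ?_
    rw [← Real.exp_add, ← Real.exp_add]
    refine Real.exp_le_exp.2 ?_
    rw [pow32 _ (by positivity), pow32 _ ht0]
    have hmono : (t : ℝ) ^ (1 / 2 : ℝ) ≤ ((t + 1 : ℕ) : ℝ) ^ (1 / 2 : ℝ) :=
      Real.rpow_le_rpow (by positivity) (by push_cast; linarith) (by norm_num)
    have hs0 : 0 ≤ (t : ℝ) ^ (1 / 2 : ℝ) := Real.rpow_nonneg (by positivity) _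
    have htt : (0 : ℝ) ≤ (t : ℝ) := by positivity
    push_cast at *
    nlinarith [mul_le_mul_of_nonneg_left hmono (mul_nonneg hC.le htt),
      mul_le_mul_of_nonneg_left hmono htt, mul_le_mul_of_nonneg_left hmono hC.le]

/-- Row B. -/
theorem rowB (hA : StA) : StB := by
  classical
  obtain ⟨C, hC, h⟩ := hA
  refine ⟨C + 2, by linarith, fun V _ => ?_⟩
  haveI := Fintype.ofFinite V
  have hm := main_bound (V := V) hC (fun G hG T hT => h V G hG T hT) (Nat.card V) univ
    (by rw [card_univ, Nat.card_eq_fintype_card])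
  have : {G : SimpleGraph V | C4Free G} = S (univ : Finset V) := by
    ext G
    simp [S]
  rw [this]
  exact hm

end Vale.Agent.P183.R2.H636
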